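import Mathlib

/-! P066: natural unit interval graphs and their chromatic quasisymmetric functions. -/

namespace Vale.Agent.P066
open Finset

/-- `{i, j}` with `i < j` is an edge of `G(h)` -/
def Edge {n : ℕ} (h : Fin n → Fin n) (i j : Fin n) : Prop := i < j ∧ j ≤ h i

instance {n : ℕ} (h : Fin n → Fin n) (i j : Fin n) : Decidable (Edge h i j) :=
  inferInstanceAs (Decidable (i < j ∧ j ≤ h i))

/-- proper colourings -/
def Proper {n N : ℕ} (h : Fin n → Fin n) (f : Fin n → Fin N) : Prop :=
  ∀ i j, Edge h i j → f i ≠ f j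

instance {n N : ℕ} (h : Fin n → Fin n) (f : Fin n → Fin N) : Decidable (Proper h f) :=
  inferInstanceAs (Decidable (∀ i j, Edge h i j → f i ≠ f j))

/-- number of ascents -/
def asc {n N : ℕ} (h : Fin n → Fin n) (f : Fin n → Fin N) : ℕ :=
  (univ.filter fun p : Fin n × Fin n => Edge h p.1 p.2 ∧ f p.1 < f p.2).card

/-- the chromatic quasisymmetric function in `N` variables, with coefficients in `ℤ[q]` -/
noncomputable def chrom {n : ℕ} (h : Fin n → Fin n) (N : ℕ) :
    MvPolynomial (Fin N) (Polynomial ℤ) :=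
  ∑ f ∈ univ.filter fun f : Fin n → Fin N => Proper h f,
    MvPolynomial.C (Polynomial.X ^ asc h f) * ∏ a, MvPolynomial.X (f a)

end Vale.Agent.P066
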