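import Mathlib

/-! P066: the chromatic quasisymmetric function of a natural unit interval graph and the
elementary symmetric functions, as formal power series in countably many variables. -/

namespace Vale.Agent.P066
open Classical

/-- `{i, j}` with `i < j` is an edge of `G(h)` -/
def IsEdge {n : ℕ} (h : Fin n → Fin n) (i j : Fin n) : Prop := i < j ∧ j ≤ h i

/-- proper colourings -/
def IsProper {n : ℕ} (h : Fin n → Fin n) (f : Fin n → ℕ) : Prop :=
  ∀ i j, IsEdge h i j → f i ≠ f j

/-- number of edges `a < b` with `f a < f b` -/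
noncomputable def ascents {n : ℕ} (h : Fin n → Fin n) (f : Fin n → ℕ) : ℕ :=
  Nat.card {p : Fin n × Fin n // IsEdge h p.1 p.2 ∧ f p.1 < f p.2}

/-- the coefficient of the monomial `x^μ` is the sum of `q^asc f` over the (finitely many) proper
colourings `f` with `∏ a, x_(f a) = x^μ` -/
noncomputable def chromaticQSym {n : ℕ} (h : Fin n → Fin n) : MvPowerSeries ℕ (Polynomial ℤ) :=
  fun μ => ∑ᶠ f ∈ {f : Fin n → ℕ | IsProper h f ∧ ∑ a, Finsupp.single (f a) 1 = μ},
    Polynomial.X ^ ascents h f

/-- the sum of all squarefree monomials of degree `k` -/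
noncomputable def elemSym (k : ℕ) : MvPowerSeries ℕ (Polynomial ℤ) :=
  fun μ => if (∀ i, μ i ≤ 1) ∧ (μ.sum fun _ m => m) = k then 1 else 0

end Vale.Agent.P066
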